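import Vale.Agent.Lib.P227.Defs

/-!
P227 module M1.  Elementary facts on support functions, the finite Hoelder inequality in the form
used here, and the homogeneous description of the logarithmic combination.
-/

namespace Vale.Agent.Lib.P227

open MeasureTheory

variable {ι : Type*} [Fintype ι]

private lemma cont_dot (u : ι → ℝ) : Continuous (fun x : ι → ℝ => dotProduct x u) := by
  unfold dotProduct
  fun_prop

theorem dot_le_supp {K : Set (ι → ℝ)} (hK : IsCompact K) {x : ι → ℝ} (hx : x ∈ K) (u : ι → ℝ) :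
    dotProduct x u ≤ supp K u := by
  unfold supp
  apply le_csSup
  · exact (hK.image (cont_dot u)).bddAbove
  · exact ⟨x, hx, rfl⟩

theorem zero_mem {K : Set (ι → ℝ)} (hK : IsSymBody K) : (0 : ι → ℝ) ∈ K := by
  obtain ⟨_, hconv, ⟨x, hx⟩, hsym⟩ := hK
  have hxK : x ∈ K := interior_subset hx
  have h := hconv hxK (hsym x hxK) (by norm_num : (0 : ℝ) ≤ 1 / 2) (by norm_num : (0 : ℝ) ≤ 1 / 2)
    (by norm_num)
  simpa using h

theorem supp_nonneg {K : Set (ι → ℝ)} (hK : IsSymBody K) (u : ι → ℝ) : 0 ≤ supp K u := by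
  have h := dot_le_supp hK.1 (zero_mem hK) u
  simpa using h

theorem supp_le {K : Set (ι → ℝ)} (hne : K.Nonempty) {u : ι → ℝ} {c : ℝ}
    (h : ∀ x ∈ K, dotProduct x u ≤ c) : supp K u ≤ c := by
  unfold supp
  apply csSup_le (hne.image _)
  rintro _ ⟨x, hx, rfl⟩
  exact h x hx

theorem supp_smul {K : Set (ι → ℝ)} (hK : IsSymBody K) {c : ℝ} (hc : 0 ≤ c) (u : ι → ℝ) :
    supp K (c • u) = c * supp K u := by
  have hne : K.Nonempty := ⟨0, zero_mem hK⟩
  apply le_antisymm
  · apply supp_le hne
    intro x hx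
    rw [dotProduct_smul, smul_eq_mul]
    exact mul_le_mul_of_nonneg_left (dot_le_supp hK.1 hx u) hc
  · rcases hc.eq_or_lt with h0 | hpos
    · subst h0
      simpa using supp_nonneg hK ((0 : ℝ) • u)
    · have : supp K u ≤ c⁻¹ * supp K (c • u) := by
        apply supp_le hne
        intro x hx
        have h1 := dot_le_supp hK.1 hx (c • u)
        rw [dotProduct_smul, smul_eq_mul] at h1
        rw [inv_mul_eq_div, le_div_iff₀ hpos]
        linarith
      calc c * supp K u ≤ c * (c⁻¹ * supp K (c • u)) := mul_le_mul_of_nonneg_left this hc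
        _ = supp K (c • u) := by field_simp

theorem holder_sum {β : Type*} (t : Finset β) (a b : β → ℝ) (ha : ∀ c ∈ t, 0 ≤ a c)
    (hb : ∀ c ∈ t, 0 ≤ b c) {l : ℝ} (hl0 : 0 ≤ l) (hl1 : l ≤ 1) :
    ∑ c ∈ t, a c ^ (1 - l) * b c ^ l ≤ (∑ c ∈ t, a c) ^ (1 - l) * (∑ c ∈ t, b c) ^ l := by
  rcases hl0.eq_or_lt with h0 | hpos
  · subst h0; simp
  rcases hl1.eq_or_lt with h1 | hlt
  · subst h1; simp
  have hp : (1 / (1 - l)).HolderConjugate (1 / l) := by
    rw [Real.holderConjugate_iff]
    constructor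
    · rw [lt_div_iff₀ (by linarith)]; linarith
    · simp
  have h := Real.inner_le_Lp_mul_Lq_of_nonneg t hp (f := fun c => a c ^ (1 - l))
    (g := fun c => b c ^ l) (fun c hc => Real.rpow_nonneg (ha c hc) _)
    (fun c hc => Real.rpow_nonneg (hb c hc) _)
  have e1 : ∀ c ∈ t, (a c ^ (1 - l)) ^ (1 / (1 - l)) = a c := by
    intro c hc
    rw [← Real.rpow_mul (ha c hc), mul_one_div_cancel (by linarith), Real.rpow_one]
  have e2 : ∀ c ∈ t, (b c ^ l) ^ (1 / l) = b c := by
    intro c hc
    rw [← Real.rpow_mul (hb c hc), mul_one_div_cancel (by linarith), Real.rpow_one]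
  rw [Finset.sum_congr rfl e1, Finset.sum_congr rfl e2] at h
  simpa using h

theorem mem_logSum_iff {K L : Set (ι → ℝ)} (hK : IsSymBody K) (hL : IsSymBody L) {l : ℝ}
    (hl0 : 0 ≤ l) (hl1 : l ≤ 1) (x : ι → ℝ) :
    x ∈ logSum l K L ↔ ∀ u : ι → ℝ, dotProduct x u ≤ supp K u ^ (1 - l) * supp L u ^ l := by
  constructor
  · intro hx u
    by_cases hu : dotProduct u u = 0
    · have hu0 : u = 0 := dotProduct_self_eq_zero.mp hu
      subst hu0
      rw [dotProduct_zero]
      exact mul_nonneg (Real.rpow_nonneg (supp_nonneg hK _) _) (Real.rpow_nonneg (supp_nonneg hL _) _)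
    · have hpos : 0 < dotProduct u u := by
        have : 0 ≤ dotProduct u u := by
          unfold dotProduct
          exact Finset.sum_nonneg (fun i _ => mul_self_nonneg _)
        exact lt_of_le_of_ne this (Ne.symm hu)
      set r := Real.sqrt (dotProduct u u) with hr
      have hrpos : 0 < r := Real.sqrt_pos.mpr hpos
      have hr2 : r * r = dotProduct u u := Real.mul_self_sqrt hpos.le
      set v := r⁻¹ • u with hv
      have hvv : dotProduct v v = 1 := by
        rw [hv, dotProduct_smul, smul_dotProduct, smul_eq_mul, smul_eq_mul, ← hr2]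
        field_simp
      have huv : u = r • v := by
        rw [hv, smul_smul, mul_inv_cancel₀ hrpos.ne', one_smul]
      have h1 := hx v hvv
      simp only at h1
      rw [huv, dotProduct_smul, smul_eq_mul, supp_smul hK hrpos.le, supp_smul hL hrpos.le,
        Real.mul_rpow hrpos.le (supp_nonneg hK _), Real.mul_rpow hrpos.le (supp_nonneg hL _)]
      have e : r ^ (1 - l) * r ^ l = r := by
        rw [← Real.rpow_add hrpos]; simp
      calc r * dotProduct x v ≤ r * (supp K v ^ (1 - l) * supp L v ^ l) :=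
            mul_le_mul_of_nonneg_left h1 hrpos.le
        _ = (r ^ (1 - l) * r ^ l) * (supp K v ^ (1 - l) * supp L v ^ l) := by rw [e]
        _ = _ := by ring
  · intro h u _
    exact h u

end Vale.Agent.Lib.P227
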