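import Vale.Agent.Lib.P227.Basic

/-!
P227 module M3 (FROZEN statements).  The log-BM inequality for the pair `K`, `T K`, where the
coordinates are split into blocks by `b : ι → β`, `K` is invariant under all block sign changes and
`T` multiplies the block `c` by `s c > 0`.
ROUTE.  `dil b s x = fun i => s (b i) * x i`.
* `volume_dil_image`: `dil b s` is `Matrix.toLin' (Matrix.diagonal fun i => s (b i))`;
  `Real.smul_map_diagonal_volume_pi` or `Measure.addHaar_image_linearMap` + `Matrix.det_diagonal`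
  (`LinearMap.det_toLin'`).
* `isSymBody_dil_image`: image of a compact convex symmetric set under a linear homeomorphism
  (inverse `dil b (fun c => (s c)⁻¹)`); interior: the image of the open set `interior K` is open
  (`Homeomorph` / `IsOpenMap`).
* `dil_rpow_subset`: let `x ∈ K`, `u` arbitrary (`mem_logSum_iff`).  Put
  `c_γ = ∑ i with b i = γ, x i * u i` (`Finset.sum_fiberwise`), `ε γ = 1` if `0 ≤ c_γ` else `-1`,
  `x' = fun i => ε (b i) * x i ∈ K`.  Then `x' ⬝ u = ∑ γ |c_γ| ≤ supp K u`,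
  `(dil b s x') ⬝ u = ∑ γ s γ * |c_γ| ≤ supp (dil b s '' K) u` and
  `(dil b (s^l) x) ⬝ u = ∑ γ (s γ)^l * c_γ ≤ ∑ γ |c_γ|^(1-l) * (s γ * |c_γ|)^l`, then `holder_sum`
  and monotonicity of `rpow`.
* `logBM_dil`: `volume (dil b s '' K) = ofReal (∏ s (b i)) * volume K`; so
  `vol K^(1-l) * vol(TK)^l = ofReal (∏ (s (b i))^l) * vol K = vol (dil b (s^l) '' K)`
  (`ENNReal.mul_rpow_of_nonneg`, `ENNReal.ofReal_rpow_of_pos`, `Real.finset_prod_rpow`,
  `ENNReal.rpow_add` needs `vol K ≠ 0, ≠ ⊤`: compact gives `< ⊤`, nonempty interior gives `> 0`),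
  then `measure_mono (dil_rpow_subset ..)`.
-/

namespace Vale.Agent.Lib.P227

open MeasureTheory

set_option linter.unusedSectionVars false

variable {ι β : Type*} [Fintype ι] [Fintype β] [DecidableEq β]

/-- block dilation: the coordinate `i` is multiplied by `s (b i)` -/
def dil (b : ι → β) (s : β → ℝ) (x : ι → ℝ) : ι → ℝ := fun i => s (b i) * x i

private lemma dil_eq_toLin [DecidableEq ι] (b : ι → β) (s : β → ℝ) :
    dil b s = ⇑(Matrix.toLin' (Matrix.diagonal fun i => s (b i))) := by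
  funext x i
  simp [dil, Matrix.toLin'_apply, Matrix.mulVec_diagonal]

theorem volume_dil_image (b : ι → β) (s : β → ℝ) (hs : ∀ c, 0 < s c) (K : Set (ι → ℝ)) :
    volume (dil b s '' K) = ENNReal.ofReal (∏ i, s (b i)) * volume K := by
  classical
  rw [dil_eq_toLin, Measure.addHaar_image_linearMap, LinearMap.det_toLin', Matrix.det_diagonal,
    abs_of_pos (Finset.prod_pos fun i _ => hs (b i))]

private lemma continuous_dil (b : ι → β) (s : β → ℝ) : Continuous (dil b s) :=
  continuous_pi fun i => continuous_const.mul (continuous_apply i)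

private noncomputable def dilHomeo (b : ι → β) (s : β → ℝ) (hs : ∀ c, 0 < s c) :
    (ι → ℝ) ≃ₜ (ι → ℝ) where
  toFun := dil b s
  invFun := dil b (fun c => (s c)⁻¹)
  left_inv := by
    intro x; funext i
    simp only [dil]
    rw [← mul_assoc, inv_mul_cancel₀ (hs _).ne', one_mul]
  right_inv := by
    intro x; funext i
    simp only [dil]
    rw [← mul_assoc, mul_inv_cancel₀ (hs _).ne', one_mul]
  continuous_toFun := continuous_dil b s
  continuous_invFun := continuous_dil b _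

theorem isSymBody_dil_image (b : ι → β) (s : β → ℝ) (hs : ∀ c, 0 < s c) {K : Set (ι → ℝ)}
    (hK : IsSymBody K) : IsSymBody (dil b s '' K) := by
  classical
  obtain ⟨hc, hconv, ⟨x0, hx0⟩, hsym⟩ := hK
  refine ⟨hc.image (continuous_dil b s), ?_, ?_, ?_⟩
  · rw [dil_eq_toLin]
    exact hconv.linear_image _
  · refine ⟨dil b s x0, ?_⟩
    have h := (dilHomeo b s hs).isOpenMap.image_interior_subset K
    exact h ⟨x0, hx0, rfl⟩
  · rintro _ ⟨x, hx, rfl⟩
    refine ⟨-x, hsym x hx, ?_⟩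
    funext i
    simp [dil]

private lemma dot_dil (b : ι → β) (s : β → ℝ) (x u : ι → ℝ) :
    dotProduct (dil b s x) u = ∑ γ, s γ * ∑ i with b i = γ, x i * u i := by
  unfold dotProduct dil
  rw [← Finset.sum_fiberwise (s := Finset.univ) (g := b)]
  refine Finset.sum_congr rfl (fun γ _ => ?_)
  rw [Finset.mul_sum]
  refine Finset.sum_congr rfl (fun i hi => ?_)
  rw [(Finset.mem_filter.mp hi).2]
  ring

private lemma dil_dil (b : ι → β) (s t : β → ℝ) (x : ι → ℝ) :
    dil b s (dil b t x) = dil b (fun c => s c * t c) x := by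
  funext i; simp only [dil]; ring

theorem dil_rpow_subset (b : ι → β) (s : β → ℝ) (hs : ∀ c, 0 < s c) {K : Set (ι → ℝ)}
    (hK : IsSymBody K)
    (hinv : ∀ ε : β → ℝ, (∀ c, ε c = 1 ∨ ε c = -1) → ∀ x ∈ K, dil b ε x ∈ K)
    {l : ℝ} (hl0 : 0 ≤ l) (hl1 : l ≤ 1) :
    dil b (fun c => s c ^ l) '' K ⊆ logSum l K (dil b s '' K) := by
  rintro _ ⟨x, hx, rfl⟩
  have hTK := isSymBody_dil_image b s hs hK
  rw [mem_logSum_iff hK hTK hl0 hl1]
  intro u
  set c : β → ℝ := fun γ => ∑ i with b i = γ, x i * u i with hc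
  set ε : β → ℝ := fun γ => if 0 ≤ c γ then 1 else -1 with hε
  have hε1 : ∀ γ, ε γ = 1 ∨ ε γ = -1 := by
    intro γ; simp only [hε]; split_ifs <;> simp
  have hεc : ∀ γ, ε γ * c γ = |c γ| := by
    intro γ; simp only [hε]
    split_ifs with h
    · rw [one_mul, abs_of_nonneg h]
    · rw [abs_of_neg (not_le.mp h)]; ring
  have hx' : dil b ε x ∈ K := hinv ε hε1 x hx
  have h1 : ∑ γ, |c γ| ≤ supp K u := by
    have := dot_le_supp hK.1 hx' u
    rw [dot_dil] at this
    calc ∑ γ, |c γ| = ∑ γ, ε γ * c γ := Finset.sum_congr rfl (fun γ _ => (hεc γ).symm)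
      _ ≤ supp K u := this
  have h2 : ∑ γ, s γ * |c γ| ≤ supp (dil b s '' K) u := by
    have := dot_le_supp hTK.1 (Set.mem_image_of_mem (dil b s) hx') u
    rw [dil_dil, dot_dil] at this
    have e : ∀ γ, s γ * ε γ * c γ = s γ * |c γ| := fun γ => by rw [mul_assoc, hεc]
    calc ∑ γ, s γ * |c γ| = ∑ γ, s γ * ε γ * c γ := Finset.sum_congr rfl (fun γ _ => (e γ).symm)
      _ ≤ supp (dil b s '' K) u := this
  rw [dot_dil]
  have h3 : ∀ γ, s γ ^ l * c γ ≤ |c γ| ^ (1 - l) * (s γ * |c γ|) ^ l := by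
    intro γ
    have e : |c γ| ^ (1 - l) * (s γ * |c γ|) ^ l = s γ ^ l * |c γ| := by
      rw [Real.mul_rpow (hs γ).le (abs_nonneg _)]
      have : |c γ| ^ (1 - l) * |c γ| ^ l = |c γ| := by
        rw [← Real.rpow_add_of_nonneg (abs_nonneg _) (by linarith) hl0]
        simp
      calc |c γ| ^ (1 - l) * (s γ ^ l * |c γ| ^ l) = s γ ^ l * (|c γ| ^ (1 - l) * |c γ| ^ l) := by ring
        _ = s γ ^ l * |c γ| := by rw [this]
    rw [e]
    exact mul_le_mul_of_nonneg_left (le_abs_self _) (Real.rpow_nonneg (hs γ).le _)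
  calc ∑ γ, s γ ^ l * c γ ≤ ∑ γ, |c γ| ^ (1 - l) * (s γ * |c γ|) ^ l :=
        Finset.sum_le_sum (fun γ _ => h3 γ)
    _ ≤ (∑ γ, |c γ|) ^ (1 - l) * (∑ γ, s γ * |c γ|) ^ l :=
        holder_sum Finset.univ _ _ (fun γ _ => abs_nonneg _)
          (fun γ _ => mul_nonneg (hs γ).le (abs_nonneg _)) hl0 hl1
    _ ≤ supp K u ^ (1 - l) * supp (dil b s '' K) u ^ l := by
        apply mul_le_mul
        · exact Real.rpow_le_rpow (Finset.sum_nonneg fun γ _ => abs_nonneg _) h1 (by linarith)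
        · exact Real.rpow_le_rpow
            (Finset.sum_nonneg fun γ _ => mul_nonneg (hs γ).le (abs_nonneg _)) h2 hl0
        · exact Real.rpow_nonneg
            (Finset.sum_nonneg fun γ _ => mul_nonneg (hs γ).le (abs_nonneg _)) _
        · exact Real.rpow_nonneg (supp_nonneg hK u) _

theorem logBM_dil (b : ι → β) (s : β → ℝ) (hs : ∀ c, 0 < s c) {K : Set (ι → ℝ)}
    (hK : IsSymBody K)
    (hinv : ∀ ε : β → ℝ, (∀ c, ε c = 1 ∨ ε c = -1) → ∀ x ∈ K, dil b ε x ∈ K)
    {l : ℝ} (hl0 : 0 ≤ l) (hl1 : l ≤ 1) : LogBM l K (dil b s '' K) := by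
  unfold LogBM
  refine le_trans (le_of_eq ?_) (measure_mono (dil_rpow_subset b s hs hK hinv hl0 hl1))
  rw [volume_dil_image b s hs, volume_dil_image b (fun c => s c ^ l)
    (fun c => Real.rpow_pos_of_pos (hs c) l)]
  have hV0 : volume K ≠ 0 := by
    have : 0 < volume (interior K) := isOpen_interior.measure_pos volume hK.2.2.1
    exact (lt_of_lt_of_le this (measure_mono interior_subset)).ne'
  have hVt : volume K ≠ ⊤ := hK.1.measure_lt_top.ne
  have hP : 0 < ∏ i, s (b i) := Finset.prod_pos fun i _ => hs (b i)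
  rw [ENNReal.mul_rpow_of_nonneg _ _ hl0, ENNReal.ofReal_rpow_of_pos hP,
    ← Real.finsetProd_rpow _ _ (fun i _ => (hs (b i)).le)]
  have : volume K ^ (1 - l) * volume K ^ l = volume K := by
    rw [← ENNReal.rpow_add _ _ hV0 hVt]; simp
  calc volume K ^ (1 - l) * (ENNReal.ofReal (∏ i, s (b i) ^ l) * volume K ^ l)
      = ENNReal.ofReal (∏ i, s (b i) ^ l) * (volume K ^ (1 - l) * volume K ^ l) := by ring
    _ = ENNReal.ofReal (∏ i, s (b i) ^ l) * volume K := by rw [this]

end Vale.Agent.Lib.P227
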