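import Mathlib

/-!
P227 (logarithmic Brunn-Minkowski): definitions.  `R^n` is `ι → ℝ` with the Euclidean inner
product `dotProduct` and Lebesgue measure `volume`.
-/

namespace Vale.Agent.Lib.P227

open MeasureTheory

variable {ι κ : Type*} [Fintype ι] [Fintype κ]

/-- support function `h_K(u) = sup_{x ∈ K} ⟨x,u⟩` -/
noncomputable def supp (K : Set (ι → ℝ)) (u : ι → ℝ) : ℝ :=
  sSup ((fun x => dotProduct x u) '' K)

/-- Wulff body of `f`: intersection of the half-spaces `⟨x,u⟩ ≤ f u` over all unit vectors `u` -/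
def wulff (f : (ι → ℝ) → ℝ) : Set (ι → ℝ) :=
  {x | ∀ u : ι → ℝ, dotProduct u u = 1 → dotProduct x u ≤ f u}

/-- logarithmic combination `(1-l) K +_0 l L` -/
noncomputable def logSum (l : ℝ) (K L : Set (ι → ℝ)) : Set (ι → ℝ) :=
  wulff (fun u => supp K u ^ (1 - l) * supp L u ^ l)

/-- origin-symmetric convex body -/
def IsSymBody (K : Set (ι → ℝ)) : Prop :=
  IsCompact K ∧ Convex ℝ K ∧ (interior K).Nonempty ∧ ∀ x ∈ K, -x ∈ K

/-- the logarithmic Brunn-Minkowski inequality for the pair `K`, `L` and the parameter `l` -/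
def LogBM (l : ℝ) (K L : Set (ι → ℝ)) : Prop :=
  volume K ^ (1 - l) * volume L ^ l ≤ volume (logSum l K L)

/-- the product body `K₁ × K₂` in `R^(ι ⊕ κ)` -/
def prodSet (K₁ : Set (ι → ℝ)) (K₂ : Set (κ → ℝ)) : Set (ι ⊕ κ → ℝ) :=
  {z | (fun i => z (Sum.inl i)) ∈ K₁ ∧ (fun j => z (Sum.inr j)) ∈ K₂}

end Vale.Agent.Lib.P227
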