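import Vale.Agent.Lib.P227.Basic

/-!
P227 module M4 (FROZEN statements).  Linear invariance of the log-BM inequality.
ROUTE.  Let `A : (ι → ℝ) ≃ₗ[ℝ] (ι → ℝ)`, `M = LinearMap.toMatrix' A`, so `A x = M.mulVec x` and
`(A x) ⬝ u = x ⬝ (Mᵀ.mulVec u)` (`Matrix.dotProduct_mulVec`, `Matrix.vecMul_transpose`).
* `isSymBody_image`: `A` is a homeomorphism (`LinearEquiv.toContinuousLinearEquiv`).
* `supp_image`: `supp (A '' K) u = supp K (Mᵀ.mulVec u)` (`Set.image_image`, congruence of the sets).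
* `logSum_image`: with `mem_logSum_iff` on both sides: `A y ∈ logSum l (A''K) (A''L)` iff for all `u`,
  `y ⬝ Mᵀu ≤ ...(Mᵀ u)`, and `u ↦ Mᵀ u` is onto because `M` is invertible.
* `logBM_image`: `Measure.addHaar_image_linearMap`: all three volumes get the factor
  `d = ofReal |det A|`, `0 < d < ⊤`; `(d a)^(1-l) (d b)^l = d a^(1-l) b^l`
  (`ENNReal.mul_rpow_of_nonneg`, `ENNReal.rpow_add`, `ENNReal.rpow_one`); cancel `d`
  (`ENNReal.mul_le_mul_left`).
-/

namespace Vale.Agent.Lib.P227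

open MeasureTheory

variable {ι : Type*} [Fintype ι] [DecidableEq ι]

/-- the transpose map of `A` -/
private noncomputable def adj (A : (ι → ℝ) ≃ₗ[ℝ] (ι → ℝ)) (u : ι → ℝ) : ι → ℝ :=
  (LinearMap.toMatrix' A.toLinearMap).transpose.mulVec u

private lemma dot_adj (A : (ι → ℝ) ≃ₗ[ℝ] (ι → ℝ)) (x u : ι → ℝ) :
    dotProduct (A x) u = dotProduct x (adj A u) := by
  have h : A x = (LinearMap.toMatrix' A.toLinearMap).mulVec x := by
    rw [LinearMap.toMatrix'_mulVec]; rfl
  rw [h, adj, Matrix.mulVec_transpose, dotProduct_comm, Matrix.dotProduct_mulVec, dotProduct_comm]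

private lemma adj_adj_symm (A : (ι → ℝ) ≃ₗ[ℝ] (ι → ℝ)) (w : ι → ℝ) :
    adj A (adj A.symm w) = w := by
  apply dotProduct_eq
  intro x
  rw [dotProduct_comm, ← dot_adj, ← dot_adj, LinearEquiv.symm_apply_apply, dotProduct_comm]

private lemma supp_image (A : (ι → ℝ) ≃ₗ[ℝ] (ι → ℝ)) (K : Set (ι → ℝ)) (u : ι → ℝ) :
    supp (A '' K) u = supp K (adj A u) := by
  unfold supp
  rw [Set.image_image]
  congr 1
  apply Set.image_congr
  intro x _
  exact dot_adj A x u

theorem isSymBody_image (A : (ι → ℝ) ≃ₗ[ℝ] (ι → ℝ)) {K : Set (ι → ℝ)} (hK : IsSymBody K) :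
    IsSymBody (A '' K) := by
  obtain ⟨h1, h2, h3, h4⟩ := hK
  refine ⟨?_, ?_, ?_, ?_⟩
  · exact h1.image A.toLinearMap.continuous_of_finiteDimensional
  · exact h2.linear_image A.toLinearMap
  · have h := A.toContinuousLinearEquiv.toHomeomorph.image_interior K
    have h' : (A.toContinuousLinearEquiv.toHomeomorph '' interior K).Nonempty := h3.image _
    rw [h] at h'
    exact h'
  · rintro _ ⟨x, hx, rfl⟩
    exact ⟨-x, h4 x hx, map_neg A x⟩

theorem logSum_image (A : (ι → ℝ) ≃ₗ[ℝ] (ι → ℝ)) {K L : Set (ι → ℝ)} (hK : IsSymBody K)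
    (hL : IsSymBody L) {l : ℝ} (hl0 : 0 ≤ l) (hl1 : l ≤ 1) :
    logSum l (A '' K) (A '' L) = A '' logSum l K L := by
  ext z
  rw [mem_logSum_iff (isSymBody_image A hK) (isSymBody_image A hL) hl0 hl1 z]
  constructor
  · intro h
    refine ⟨A.symm z, ?_, A.apply_symm_apply z⟩
    rw [mem_logSum_iff hK hL hl0 hl1]
    intro w
    have h5 := h (adj A.symm w)
    rw [supp_image, supp_image, adj_adj_symm] at h5
    have h6 : dotProduct z (adj A.symm w) = dotProduct (A.symm z) w := (dot_adj A.symm z w).symm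
    rw [h6] at h5
    exact h5
  · rintro ⟨y, hy, rfl⟩ u
    rw [mem_logSum_iff hK hL hl0 hl1] at hy
    rw [supp_image, supp_image, dot_adj]
    exact hy _

theorem logBM_image (A : (ι → ℝ) ≃ₗ[ℝ] (ι → ℝ)) {K L : Set (ι → ℝ)} (hK : IsSymBody K)
    (hL : IsSymBody L) {l : ℝ} (hl0 : 0 ≤ l) (hl1 : l ≤ 1) :
    LogBM l (A '' K) (A '' L) ↔ LogBM l K L := by
  unfold LogBM
  rw [logSum_image A hK hL hl0 hl1]
  have hv : ∀ s : Set (ι → ℝ), volume (A '' s)
      = ENNReal.ofReal |LinearMap.det A.toLinearMap| * volume s := fun s =>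
    Measure.addHaar_image_linearMap volume A.toLinearMap s
  set d : ENNReal := ENNReal.ofReal |LinearMap.det A.toLinearMap| with hd
  have hd0 : d ≠ 0 := by
    rw [hd]
    have : LinearMap.det A.toLinearMap ≠ 0 := (LinearEquiv.isUnit_det' A).ne_zero
    simp [this]
  have hdt : d ≠ ⊤ := ENNReal.ofReal_ne_top
  rw [hv K, hv L, hv (logSum l K L)]
  have h1l : 0 ≤ 1 - l := by linarith
  have e : (d * volume K) ^ (1 - l) * (d * volume L) ^ l
      = d * (volume K ^ (1 - l) * volume L ^ l) := by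
    rw [ENNReal.mul_rpow_of_nonneg _ _ h1l, ENNReal.mul_rpow_of_nonneg _ _ hl0]
    have hdd : d ^ (1 - l) * d ^ l = d := by
      rw [← ENNReal.rpow_add _ _ hd0 hdt]
      simp
    calc d ^ (1 - l) * volume K ^ (1 - l) * (d ^ l * volume L ^ l)
        = (d ^ (1 - l) * d ^ l) * (volume K ^ (1 - l) * volume L ^ l) := by ring
      _ = d * (volume K ^ (1 - l) * volume L ^ l) := by rw [hdd]
  rw [e]
  exact ENNReal.mul_le_mul_iff_right hd0 hdt

end Vale.Agent.Lib.P227
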