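import Vale.Agent.Lib.P227.Basic

/-!
P227 module M2 (FROZEN statements, proved by helper19).  Closure of the log-BM inequality under products.
ROUTE.  Let `e := MeasurableEquiv.sumPiEquivProdPi (fun _ : ι ⊕ κ => ℝ)`
(`volume_measurePreserving_sumPiEquivProdPi`), also a homeomorphism / linear equivalence
(`Homeomorph.sumPiEquivProdPi`, `LinearEquiv.sumPiEquivProdPi`); `prodSet K₁ K₂ = e ⁻¹' (K₁ ×ˢ K₂)`.
* `volume_prodSet`: `MeasurePreserving.measure_preimage_equiv`, `Measure.volume_eq_prod`,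
  `Measure.prod_prod` (no measurability needed).
* `isSymBody_prodSet`: compact (`IsCompact.prod` + homeomorphism), convex (direct), interior
  (preimage of `interior K₁ ×ˢ interior K₂` is open and contained), symmetric (direct).
* `supp_prodSet_ge`: for `x ∈ K₁`, `y ∈ K₂`, `Sum.elim x y ∈ prodSet`, and
  `dotProduct (Sum.elim x y) u = x ⬝ u∘inl + y ∘ u∘inr` (`Fintype.sum_sum_type`); take sup in `x`
  then in `y` (`supp_le` twice after moving terms, or `csSup`-approximation).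
* `prodSet_logSum_subset`: `mem_logSum_iff` for the two factors and for the product,
  `holder_sum` on `Finset.univ : Finset (Fin 2)` (or Bool), monotonicity of `rpow` with
  `supp_prodSet_ge`, nonnegativity by `supp_nonneg`.
* `logBM_prodSet`: `volume_prodSet`, `ENNReal.mul_rpow_of_nonneg`, `mul_le_mul'`, `measure_mono`.
-/

namespace Vale.Agent.Lib.P227

open MeasureTheory

variable {ι κ : Type*} [Fintype ι] [Fintype κ]

private lemma prodSet_eq_preimage (K₁ : Set (ι → ℝ)) (K₂ : Set (κ → ℝ)) :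
    prodSet K₁ K₂ = (MeasurableEquiv.sumPiEquivProdPi (fun _ : ι ⊕ κ => ℝ)) ⁻¹' (K₁ ×ˢ K₂) := by
  ext z
  rfl

private lemma prodSet_eq_preimage' (K₁ : Set (ι → ℝ)) (K₂ : Set (κ → ℝ)) :
    prodSet K₁ K₂ = (Homeomorph.sumPiEquivProdPi ι κ (fun _ : ι ⊕ κ => ℝ)) ⁻¹' (K₁ ×ˢ K₂) := by
  ext z
  rfl

theorem volume_prodSet (K₁ : Set (ι → ℝ)) (K₂ : Set (κ → ℝ)) :
    volume (prodSet K₁ K₂) = volume K₁ * volume K₂ := by
  rw [prodSet_eq_preimage,
    (volume_measurePreserving_sumPiEquivProdPi (fun _ : ι ⊕ κ => ℝ)).measure_preimage_equiv,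
    Measure.volume_eq_prod, Measure.prod_prod]

private lemma dot_split (z u : ι ⊕ κ → ℝ) :
    dotProduct z u = dotProduct (fun i => z (Sum.inl i)) (fun i => u (Sum.inl i)) +
      dotProduct (fun j => z (Sum.inr j)) (fun j => u (Sum.inr j)) := by
  simp [dotProduct, Fintype.sum_sum_type]

theorem isSymBody_prodSet {K₁ : Set (ι → ℝ)} {K₂ : Set (κ → ℝ)} (h₁ : IsSymBody K₁)
    (h₂ : IsSymBody K₂) : IsSymBody (prodSet K₁ K₂) := by
  obtain ⟨hc1, hv1, hi1, hs1⟩ := h₁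
  obtain ⟨hc2, hv2, hi2, hs2⟩ := h₂
  refine ⟨?_, ?_, ?_, ?_⟩
  · rw [prodSet_eq_preimage']
    exact (Homeomorph.isCompact_preimage _).mpr (hc1.prod hc2)
  · intro z hz w hw a b ha hb hab
    exact ⟨hv1 hz.1 hw.1 ha hb hab, hv2 hz.2 hw.2 ha hb hab⟩
  · obtain ⟨x, hx⟩ := hi1
    obtain ⟨y, hy⟩ := hi2
    refine ⟨(Homeomorph.sumPiEquivProdPi ι κ (fun _ : ι ⊕ κ => ℝ)).symm (x, y), ?_⟩
    rw [prodSet_eq_preimage', ← Homeomorph.preimage_interior, interior_prod_eq]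
    simpa using And.intro hx hy
  · intro z hz
    exact ⟨hs1 _ hz.1, hs2 _ hz.2⟩

theorem supp_prodSet_ge {K₁ : Set (ι → ℝ)} {K₂ : Set (κ → ℝ)} (h₁ : IsSymBody K₁)
    (h₂ : IsSymBody K₂) (u : ι ⊕ κ → ℝ) :
    supp K₁ (fun i => u (Sum.inl i)) + supp K₂ (fun j => u (Sum.inr j)) ≤
      supp (prodSet K₁ K₂) u := by
  have hP := isSymBody_prodSet h₁ h₂
  have hne1 : K₁.Nonempty := ⟨0, zero_mem h₁⟩
  have hne2 : K₂.Nonempty := ⟨0, zero_mem h₂⟩
  have key : ∀ x ∈ K₁, ∀ y ∈ K₂, dotProduct x (fun i => u (Sum.inl i)) +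
      dotProduct y (fun j => u (Sum.inr j)) ≤ supp (prodSet K₁ K₂) u := by
    intro x hx y hy
    have hmem : (Sum.elim x y : ι ⊕ κ → ℝ) ∈ prodSet K₁ K₂ := ⟨hx, hy⟩
    have := dot_le_supp hP.1 hmem u
    rw [dot_split] at this
    exact this
  have h1 : ∀ y ∈ K₂, supp K₁ (fun i => u (Sum.inl i)) ≤
      supp (prodSet K₁ K₂) u - dotProduct y (fun j => u (Sum.inr j)) := by
    intro y hy
    refine supp_le hne1 (fun x hx => ?_)
    linarith [key x hx y hy]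
  have h2 : supp K₂ (fun j => u (Sum.inr j)) ≤
      supp (prodSet K₁ K₂) u - supp K₁ (fun i => u (Sum.inl i)) := by
    refine supp_le hne2 (fun y hy => ?_)
    linarith [h1 y hy]
  linarith

theorem prodSet_logSum_subset {K₁ L₁ : Set (ι → ℝ)} {K₂ L₂ : Set (κ → ℝ)}
    (hK₁ : IsSymBody K₁) (hL₁ : IsSymBody L₁) (hK₂ : IsSymBody K₂) (hL₂ : IsSymBody L₂)
    {l : ℝ} (hl0 : 0 ≤ l) (hl1 : l ≤ 1) :
    prodSet (logSum l K₁ L₁) (logSum l K₂ L₂) ⊆ logSum l (prodSet K₁ K₂) (prodSet L₁ L₂) := by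
  intro z hz
  rw [mem_logSum_iff (isSymBody_prodSet hK₁ hK₂) (isSymBody_prodSet hL₁ hL₂) hl0 hl1]
  intro u
  have e1 := (mem_logSum_iff hK₁ hL₁ hl0 hl1 _).mp hz.1 (fun i => u (Sum.inl i))
  have e2 := (mem_logSum_iff hK₂ hL₂ hl0 hl1 _).mp hz.2 (fun j => u (Sum.inr j))
  set a1 := supp K₁ (fun i => u (Sum.inl i))
  set a2 := supp K₂ (fun j => u (Sum.inr j))
  set b1 := supp L₁ (fun i => u (Sum.inl i))
  set b2 := supp L₂ (fun j => u (Sum.inr j))
  have ha1 : 0 ≤ a1 := supp_nonneg hK₁ _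
  have ha2 : 0 ≤ a2 := supp_nonneg hK₂ _
  have hb1 : 0 ≤ b1 := supp_nonneg hL₁ _
  have hb2 : 0 ≤ b2 := supp_nonneg hL₂ _
  have hh := holder_sum (Finset.univ : Finset (Fin 2)) ![a1, a2] ![b1, b2]
    (by intro c _; fin_cases c <;> simp [ha1, ha2])
    (by intro c _; fin_cases c <;> simp [hb1, hb2]) hl0 hl1
  simp only [Fin.sum_univ_two, Matrix.cons_val_zero, Matrix.cons_val_one] at hh
  have hA := supp_prodSet_ge hK₁ hK₂ u
  have hB := supp_prodSet_ge hL₁ hL₂ u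
  rw [dot_split]
  calc _ ≤ a1 ^ (1 - l) * b1 ^ l + a2 ^ (1 - l) * b2 ^ l := add_le_add e1 e2
    _ ≤ (a1 + a2) ^ (1 - l) * (b1 + b2) ^ l := hh
    _ ≤ supp (prodSet K₁ K₂) u ^ (1 - l) * supp (prodSet L₁ L₂) u ^ l := by
        apply mul_le_mul
        · exact Real.rpow_le_rpow (by positivity) hA (by linarith)
        · exact Real.rpow_le_rpow (by positivity) hB hl0
        · positivity
        · exact Real.rpow_nonneg (supp_nonneg (isSymBody_prodSet hK₁ hK₂) u) _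

theorem logBM_prodSet {K₁ L₁ : Set (ι → ℝ)} {K₂ L₂ : Set (κ → ℝ)}
    (hK₁ : IsSymBody K₁) (hL₁ : IsSymBody L₁) (hK₂ : IsSymBody K₂) (hL₂ : IsSymBody L₂)
    {l : ℝ} (hl0 : 0 ≤ l) (hl1 : l ≤ 1) (h₁ : LogBM l K₁ L₁) (h₂ : LogBM l K₂ L₂) :
    LogBM l (prodSet K₁ K₂) (prodSet L₁ L₂) := by
  unfold LogBM at *
  rw [volume_prodSet, volume_prodSet, ENNReal.mul_rpow_of_nonneg _ _ (by linarith : 0 ≤ 1 - l),
    ENNReal.mul_rpow_of_nonneg _ _ hl0]
  calc volume K₁ ^ (1 - l) * volume K₂ ^ (1 - l) * (volume L₁ ^ l * volume L₂ ^ l)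
      = (volume K₁ ^ (1 - l) * volume L₁ ^ l) * (volume K₂ ^ (1 - l) * volume L₂ ^ l) := by ring
    _ ≤ volume (logSum l K₁ L₁) * volume (logSum l K₂ L₂) := mul_le_mul' h₁ h₂
    _ = volume (prodSet (logSum l K₁ L₁) (logSum l K₂ L₂)) := (volume_prodSet _ _).symm
    _ ≤ _ := measure_mono (prodSet_logSum_subset hK₁ hL₁ hK₂ hL₂ hl0 hl1)

end Vale.Agent.Lib.P227
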